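import Vale.Agent.P139.R3.H36.Sob
import Vale.Agent.P139.R3.H36.Laws
import Vale.Agent.P139.H203.EnergyB

/-! # P139: mass and energy are continuous on `H^k(T^d)` -/

open Set Metric Filter Topology MeasureTheory
open scoped NNReal ENNReal ComplexConjugate

namespace Vale.Agent.P139.R3.H861

open Vale.Agent.P139.A Vale.Agent.P139.A.WA Vale.Agent.P139.H203 Vale.Agent.P139.H836
open Vale.Agent.P139.R3.H36

variable {d k : ℕ}

/-- Quadratic Fourier multipliers bounded by the weight are continuous. -/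
theorem continuous_wsum (w : Lat d → ℝ) (h0 : ∀ n, 0 ≤ w n)
    (h1 : ∀ n, w n ≤ (1 + sqNorm n) ^ k) :
    Continuous fun x : HS d k => ∑' n, w n * ‖HS.co x n‖ ^ 2 := by
  have heq : ∀ (x : HS d k) (n : Lat d), ‖(Real.sqrt (w n) : ℂ) * HS.co x n‖ ^ 2 =
      w n * ‖HS.co x n‖ ^ 2 := by
    intro x n
    rw [norm_mul, mul_pow, Complex.norm_real, Real.norm_of_nonneg (Real.sqrt_nonneg _),
      Real.sq_sqrt (h0 n)]
  have hle : ∀ (x : HS d k) (n : Lat d), w n * ‖HS.co x n‖ ^ 2 ≤
      (1 + sqNorm n) ^ k * ‖HS.co x n‖ ^ 2 := fun x n =>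
    mul_le_mul_of_nonneg_right (h1 n) (sq_nonneg _)
  have hs : ∀ x : HS d k, Summable fun n => w n * ‖HS.co x n‖ ^ 2 := fun x =>
    Summable.of_nonneg_of_le (fun n => mul_nonneg (h0 n) (sq_nonneg _)) (hle x) (HS.memS x)
  have hmem : ∀ x : HS d k, Memℓp (fun n : Lat d => (Real.sqrt (w n) : ℂ) * HS.co x n) 2 := by
    intro x
    rw [memℓp_gen_iff (by norm_num)]
    simp only [ENNReal.toReal_ofNat, Real.rpow_ofNat]
    exact (hs x).congr fun n => (heq x n).symm
  let L : HS d k →ₗ[ℂ] lp (fun _ : Lat d => ℂ) 2 :=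
    { toFun := fun x => ⟨fun n => (Real.sqrt (w n) : ℂ) * HS.co x n, hmem x⟩
      map_add' := fun x y => by
        apply lp.ext
        funext n
        show (Real.sqrt (w n) : ℂ) * HS.co (x + y) n =
          (Real.sqrt (w n) : ℂ) * HS.co x n + (Real.sqrt (w n) : ℂ) * HS.co y n
        rw [HS.co_add, mul_add]
      map_smul' := fun c x => by
        apply lp.ext
        funext n
        show (Real.sqrt (w n) : ℂ) * HS.co (c • x) n = c * ((Real.sqrt (w n) : ℂ) * HS.co x n)
        rw [HS.co_smul]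
        ring }
  have hnorm : ∀ x : HS d k, ‖L x‖ ^ 2 = ∑' n, w n * ‖HS.co x n‖ ^ 2 := by
    intro x
    have := lp.norm_rpow_eq_tsum (p := 2) (by norm_num) (L x)
    simp only [ENNReal.toReal_ofNat, Real.rpow_ofNat] at this
    exact this.trans (tsum_congr fun n => heq x n)
  have hb : ∀ x : HS d k, ‖L x‖ ≤ 1 * ‖x‖ := by
    intro x
    rw [one_mul]
    refine abs_le_of_sq_le_sq' ?_ (norm_nonneg _) |>.2
    rw [hnorm, HS.norm_sq_eq]
    exact (hs x).tsum_le_tsum (hle x) (HS.memS x)
  exact ((L.mkContinuous 1 hb).continuous.norm.pow 2).congr fun x => hnorm x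

/-- The mass is continuous on `H^k`. -/
theorem continuous_mass : Continuous (fun x : HS d k => massOf (HS.co x)) := by
  have h := continuous_wsum (d := d) (k := k) (fun _ => 1) (fun _ => zero_le_one)
    (fun n => one_le_weight n)
  simpa only [massOf, one_mul] using h

theorem continuous_toW (hk : d < 2 * k) : Continuous (HS.toW : HS d k → WA d 0) := by
  refine (LipschitzWith.of_dist_le_mul (K := Real.toNNReal (Real.sqrt (CS d k)))
    fun a b => ?_).continuous
  rw [dist_eq_norm, dist_eq_norm, ← HS.toW_sub hk, Real.coe_toNNReal _ (Real.sqrt_nonneg _)]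
  exact HS.norm_toW_le hk (a - b)

theorem fourier_pot (hk : d < 2 * k) (m : ℕ) (x : HS d k) :
    fourierCoef (fun y => (‖series (HS.co x) y‖ : ℂ) ^ (2 * m + 1 + 1)) 0 =
      coef ((HS.toW x * conjL (HS.toW x)) ^ (m + 1)) 0 := by
  have h1 : (fun y => (‖series (HS.co x) y‖ : ℂ) ^ (2 * m + 1 + 1)) =
      series (coef ((HS.toW x * conjL (HS.toW x)) ^ (m + 1))) := by
    funext y
    have h2 : ev (HS.toW x) y = series (HS.co x) y := by
      unfold ev
      congr 1
      funext n
      exact HS.coef_toW hk x n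
    have h3 : ev ((HS.toW x * conjL (HS.toW x)) ^ (m + 1)) y =
        (‖series (HS.co x) y‖ : ℂ) ^ (2 * m + 1 + 1) := by
      rw [ev_pow, ev_mul, ev_conjL, h2, Complex.mul_conj', ← pow_mul]
      congr 1
    exact h3.symm
  rw [h1, fourierCoef_series (WA.summable_norm _)]

/-- The energy is continuous on `H^k`, `2k > d`. -/
theorem continuous_energy (hk : d < 2 * k) (hk1 : 1 ≤ k) (m : ℕ) :
    Continuous (fun x : HS d k => energyOf (2 * m + 1) (HS.co x)) := by
  have h1 : Continuous fun x : HS d k => ∑' n, sqNorm n * ‖HS.co x n‖ ^ 2 := by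
    refine continuous_wsum (fun n => sqNorm n) (fun n => sqNorm_nonneg n) (fun n => ?_)
    have h := sqNorm_nonneg n
    calc sqNorm n ≤ (1 + sqNorm n) ^ 1 := by rw [pow_one]; linarith
      _ ≤ (1 + sqNorm n) ^ k := pow_le_pow_right₀ (by linarith) hk1
  have h2 : Continuous fun x : HS d k => H203.V m (HS.toW x) :=
    (continuous_V m).comp (continuous_toW hk)
  have h3 : Continuous fun x : HS d k =>
      (∑' n, sqNorm n * ‖HS.co x n‖ ^ 2) / 2 + H203.V m (HS.toW x) := (h1.div_const 2).add h2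
  refine h3.congr fun x => ?_
  unfold energyOf H203.V
  rw [fourier_pot hk]
  have h4 : (((2 * m + 1 : ℕ) : ℝ) + 1) = 2 * m + 2 := by
    push_cast
    ring
  rw [h4]

end Vale.Agent.P139.R3.H861
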