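import Vale.Agent.P139.H203.Prob

/-! # P139: finitely supported rational vectors are dense in `H^k` -/

open Set Filter Topology
open scoped NNReal ENNReal

namespace Vale.Agent.P139.R3.H861

open Vale.Agent.P139.A Vale.Agent.P139.H203 Vale.Agent.P139.H836

theorem exists_rat_near (z : ℂ) {ε : ℝ} (hε : 0 < ε) :
    ∃ r : ℚ × ℚ, ‖((r.1 : ℝ) : ℂ) + ((r.2 : ℝ) : ℂ) * Complex.I + z‖ < ε := by
  obtain ⟨p, hp1, hp2⟩ := exists_rat_btwn (show -z.re < -z.re + ε / 2 by linarith)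
  obtain ⟨q, hq1, hq2⟩ := exists_rat_btwn (show -z.im < -z.im + ε / 2 by linarith)
  refine ⟨(p, q), ?_⟩
  have h1 := Complex.norm_le_abs_re_add_abs_im (((p : ℝ) : ℂ) + ((q : ℝ) : ℂ) * Complex.I + z)
  have h2 : (((p : ℝ) : ℂ) + ((q : ℝ) : ℂ) * Complex.I + z).re = p + z.re := by simp
  have h3 : (((p : ℝ) : ℂ) + ((q : ℝ) : ℂ) * Complex.I + z).im = q + z.im := by simp
  rw [h2, h3] at h1
  have h4 : |(p : ℝ) + z.re| < ε / 2 := by rw [abs_lt]; constructor <;> linarith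
  have h5 : |(q : ℝ) + z.im| < ε / 2 := by rw [abs_lt]; constructor <;> linarith
  exact h1.trans_lt (by linarith)

theorem exists_rat_close {d k : ℕ} {a : Lat d → ℂ} (ha : MemSobolev k a) {δ : ℝ} (hδ : 0 < δ) :
    ∃ r : Lat d →₀ ℚ × ℚ,
      sobolevSq k (fun n => ((((r n).1 : ℝ) : ℂ) + (((r n).2 : ℝ) : ℂ) * Complex.I) + a n) < δ := by
  classical
  set f : Lat d → ℝ := fun n => (1 + sqNorm n) ^ k * ‖a n‖ ^ 2 with hf
  have hw : ∀ n : Lat d, 0 < (1 + sqNorm n) ^ k := fun n => by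
    have : 0 ≤ sqNorm n := Finset.sum_nonneg fun j _ => sq_nonneg _
    positivity
  have hfs : Summable f := ha
  obtain ⟨s, hs⟩ : ∃ s : Finset (Lat d), (∑' n, f n) - δ / 2 < ∑ n ∈ s, f n := by
    have h1 : Tendsto (fun s : Finset (Lat d) => ∑ n ∈ s, f n) atTop (𝓝 (∑' n, f n)) := hfs.hasSum
    exact (h1.eventually (lt_mem_nhds (sub_lt_self _ (half_pos hδ)))).exists
  set c : ℝ := δ / (2 * ((s.card : ℝ) + 1)) with hc
  have hc0 : 0 < c := div_pos hδ (by
    have := Nat.cast_nonneg (α := ℝ) s.card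
    linarith)
  have hex : ∀ n : Lat d, ∃ r : ℚ × ℚ,
      (1 + sqNorm n) ^ k * ‖((r.1 : ℝ) : ℂ) + ((r.2 : ℝ) : ℂ) * Complex.I + a n‖ ^ 2 < c := by
    intro n
    obtain ⟨r, hr⟩ := exists_rat_near (a n)
      (show 0 < Real.sqrt (c / (1 + sqNorm n) ^ k) from Real.sqrt_pos.2 (div_pos hc0 (hw n)))
    refine ⟨r, ?_⟩
    have h1 := pow_lt_pow_left₀ hr (norm_nonneg _) two_ne_zero
    rw [Real.sq_sqrt (div_pos hc0 (hw n)).le, lt_div_iff₀ (hw n)] at h1
    linarith
  choose r hr using hex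
  refine ⟨Finsupp.onFinset s (fun n => if n ∈ s then r n else 0) (fun n hn => by
    by_contra h
    exact hn (if_neg h)), ?_⟩
  set F : Lat d → ℝ := fun n => (1 + sqNorm n) ^ k *
    ‖((((Finsupp.onFinset s (fun n => if n ∈ s then r n else 0) (fun n hn => by
    by_contra h
    exact hn (if_neg h)) : Lat d →₀ ℚ × ℚ) n).1 : ℝ) : ℂ) +
    ((((Finsupp.onFinset s (fun n => if n ∈ s then r n else 0) (fun n hn => by
    by_contra h
    exact hn (if_neg h)) : Lat d →₀ ℚ × ℚ) n).2 : ℝ) : ℂ) * Complex.I + a n‖ ^ 2 with hF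
  have hFs : ∀ n ∈ s, F n < c := fun n hn => by
    simp only [hF, Finsupp.onFinset_apply, if_pos hn]
    exact hr n
  have hFn : ∀ n, n ∉ s → F n = f n := fun n hn => by
    simp only [hF, Finsupp.onFinset_apply, if_neg hn]
    simp [hf]
  have hF0 : ∀ n, 0 ≤ F n := fun n => mul_nonneg (hw n).le (sq_nonneg _)
  have h2 : Summable fun n => if n ∈ s then F n - f n else 0 :=
    summable_of_ne_finset_zero (s := s) fun n hn => if_neg hn
  have hFf : ∀ n, F n = f n + (if n ∈ s then F n - f n else 0) := fun n => by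
    by_cases hn : n ∈ s
    · simp [hn]
    · simp [hn, hFn n hn]
  have h3 : (∑' n, if n ∈ s then F n - f n else 0) = ∑ n ∈ s, (F n - f n) := by
    rw [tsum_eq_sum (s := s) (fun n hn => if_neg hn)]
    exact Finset.sum_congr rfl fun n hn => if_pos hn
  have h4 : (∑' n, F n) = (∑' n, f n) + ∑ n ∈ s, (F n - f n) := by
    rw [tsum_congr hFf, hfs.tsum_add h2, h3]
  have h5 : ∑ n ∈ s, F n ≤ (s.card : ℝ) * c := by
    have := Finset.sum_le_card_nsmul s F c fun n hn => (hFs n hn).le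
    simpa [nsmul_eq_mul] using this
  have h6 : (s.card : ℝ) * c ≤ δ / 2 := by
    have h7 : (0 : ℝ) < 2 * ((s.card : ℝ) + 1) := by
      have := Nat.cast_nonneg (α := ℝ) s.card
      linarith
    have h8 : c * (2 * ((s.card : ℝ) + 1)) = δ := div_mul_cancel₀ _ h7.ne'
    linarith
  show (∑' n, F n) < δ
  rw [h4, Finset.sum_sub_distrib]
  linarith

end Vale.Agent.P139.R3.H861
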